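import Vale.Agent.P290.Defs
import Vale.Agent.P290.Main

open scoped Manifold ContDiff LinearAlgebra.Projectivization
open Vale.Agent.P290

/-- A compact complex surface with a nowhere vanishing holomorphic 2-form and a family of
holomorphic maps to the projective line with jointly finite fibres and without common critical
point is an Oka manifold. -/
theorem Vale.Agent.Results.P290.Fibred.result
    {X : Type*} [MetricSpace X] [CompactSpace X] [ChartedSpace (ℂ × ℂ) X]
    [IsManifold 𝓘(ℂ, ℂ × ℂ) ω X]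
    (σ : ∀ x : X, TangentSpace 𝓘(ℂ, ℂ × ℂ) x [⋀^Fin 2]→L[ℂ] ℂ) (hσ : IsHolForm σ)
    (hσ0 : ∀ x, σ x ≠ 0) {ι : Type*} (p : ι → X → ℙ ℂ (ℂ × ℂ)) (hp : ∀ i, IsHolMap (p i))
    (hfin : ∀ x, {y | ∀ i, p i y = p i x}.Finite)
    (hsub : ∀ x, ∃ i, IsSubmersiveAt (p i) x) : IsOka X :=
  main σ hσ hσ0 p hp hfin hsub
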